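import Vale.Agent.P159.T1.H598.R1

/-!
Constancy of the deficit of the charged sector, and the amplitude bound in which the deficit
counts twice.
-/

open Filter Topology

namespace Vale.Agent.P159.T1.H598

open Vale.Agent.P159 Vale.Agent.P159.H353 Vale.Agent.P159.R2.H254
open Vale.Agent.P159.T1.H934

section real

/-- the iterated inequality -/
lemma chain {r : ℝ} {x m : ℕ → ℝ} (h : ∀ j, 2 * (x j + m j) ≤ x (j + 1) + r) (k : ℕ) :
    x 0 ≤ (1 / 2) ^ k * x k + (1 - (1 / 2) ^ k) * r - ∑ j ∈ Finset.range k, (1 / 2) ^ j * m j := by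
  induction k with
  | zero => simp
  | succ k ih =>
    rw [Finset.sum_range_succ]
    have h1 := mul_le_mul_of_nonneg_left (h k) (by positivity : (0 : ℝ) ≤ (1 / 2) ^ (k + 1))
    have h2 : ((1 : ℝ) / 2) ^ (k + 1) = (1 / 2) ^ k * (1 / 2) := pow_succ _ _
    rw [h2] at h1 ⊢
    nlinarith [h1, ih]

lemma sum_half (k : ℕ) : ∑ j ∈ Finset.range k, ((1 : ℝ) / 2) ^ j = 2 * (1 - (1 / 2) ^ k) := by
  induction k with
  | zero => simp
  | succ k ih =>
    rw [Finset.sum_range_succ, ih, pow_succ]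
    ring

lemma sum_two (k : ℕ) : ∑ j ∈ Finset.range k, ((1 : ℝ) / 2) ^ j * 4 ^ j = 2 ^ k - 1 := by
  induction k with
  | zero => simp
  | succ k ih =>
    rw [Finset.sum_range_succ, ih, ← mul_pow, pow_succ]
    norm_num
    ring

/-- **Lower bound of the deficit.** If `d` satisfies the two replica inequality along the doubled
tilts, the deficit `f 0` is at least the deficit `e` of the untilted sector, up to the errors. -/
lemma deficit_ge {e δ : ℝ} (hδ : 0 ≤ δ) {f m : ℕ → ℝ}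
    (h : ∀ j, f (j + 1) + e ≤ 2 * f j + 2 * m j) (hm : ∀ j, m j ≤ δ) {k : ℕ} (hk : -δ ≤ f k) :
    (1 - (1 / 2) ^ k) * e - 2 * δ ≤ f 0 := by
  have h1 := chain (r := -e) (x := fun j => -f j) (m := fun j => -m j)
    (fun j => by linarith [h j]) k
  have h2 : ∑ j ∈ Finset.range k, ((1 : ℝ) / 2) ^ j * m j ≤
      ∑ j ∈ Finset.range k, ((1 : ℝ) / 2) ^ j * δ :=
    Finset.sum_le_sum fun j _ => mul_le_mul_of_nonneg_left (hm j) (by positivity)
  rw [← Finset.sum_mul, sum_half] at h2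
  have h3 : ∑ j ∈ Finset.range k, ((1 : ℝ) / 2) ^ j * -m j =
      -∑ j ∈ Finset.range k, ((1 : ℝ) / 2) ^ j * m j := by
    rw [← Finset.sum_neg_distrib]
    exact Finset.sum_congr rfl fun j _ => by ring
  rw [h3] at h1
  have h4 := mul_le_mul_of_nonneg_left hk (by positivity : (0 : ℝ) ≤ (1 / 2) ^ k)
  have h5 : (0 : ℝ) ≤ (1 / 2) ^ k * δ := by positivity
  linarith

/-- **Constancy of the deficit.** For a family of functions `d i : G × ℤ → ℝ` with the two replica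
inequality, nonnegative in the limit in the charged sectors and vanishing in the limit in the
sector `0`, the deficit of the sector `1` does not depend on the tilt. -/
theorem deficit_const {ι G : Type} [AddCommGroup G] [Module ℝ G] {F : Filter ι}
    {d : ι → G → ℤ → ℝ}
    (h4 : ∀ i x y k l, d i (x + y) (k + l) + d i (x - y) (k - l) ≤ 2 * d i x k + 2 * d i y l)
    (g : G) (q : ℤ)
    (hU : ∀ c : ℝ, ∀ ε : ℝ, 0 < ε → ∀ᶠ i in F, -ε ≤ d i (c • g) q)
    (hV : ∀ c : ℝ, ∀ ε : ℝ, 0 < ε → ∀ᶠ i in F, d i (c • g) 0 ≤ ε)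
    {K : ℝ} (hK : ∀ᶠ i in F, d i 0 q ≤ K) :
    Tendsto (fun i => d i g q - d i 0 q) F (𝓝 0) := by
  -- lower bound, for all tilts
  have low : ∀ c : ℝ, ∀ ε : ℝ, 0 < ε → ∀ᶠ i in F, d i 0 q - ε ≤ d i (c • g) q := by
    intro c ε hε
    obtain ⟨k, hk⟩ : ∃ k : ℕ, ((1 : ℝ) / 2) ^ k * (|K| + 1) < ε / 4 := by
      have h1 : Tendsto (fun k : ℕ => ((1 : ℝ) / 2) ^ k * (|K| + 1)) atTop (𝓝 (0 * (|K| + 1))) :=
        (tendsto_pow_atTop_nhds_zero_of_lt_one (by norm_num) (by norm_num)).mul_const _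
      rw [zero_mul] at h1
      exact (h1.eventually (gt_mem_nhds (by positivity : (0 : ℝ) < ε / 4))).exists
    have hVall : ∀ᶠ i in F, ∀ j ∈ Finset.range (k + 1), d i ((2 ^ j * c) • g) 0 ≤ ε / 8 := by
      rw [eventually_all_finset]
      intro j _
      exact hV _ _ (by positivity)
    filter_upwards [hVall, hU (2 ^ k * c) (ε / 8) (by positivity), hK] with i a1 a2 a3
    -- replace the tail by the constant sequence
    have h5 := chain (r := -d i 0 q) (x := fun j => -d i ((2 ^ j * c) • g) q)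
      (m := fun j => -d i ((2 ^ j * c) • g) 0) (fun j => by
        have h6 := h4 i ((2 ^ j * c) • g) ((2 ^ j * c) • g) q 0
        rw [add_zero, sub_zero, sub_self, ← add_smul] at h6
        have h7 : (2 ^ j * c + 2 ^ j * c : ℝ) = 2 ^ (j + 1) * c := by ring
        rw [h7] at h6
        show 2 * (-d i ((2 ^ j * c) • g) q + -d i ((2 ^ j * c) • g) 0) ≤
          -d i ((2 ^ (j + 1) * c) • g) q + -d i 0 q
        linarith) k
    have h8 : ∑ j ∈ Finset.range k, ((1 : ℝ) / 2) ^ j * -d i ((2 ^ j * c) • g) 0 ≥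
        ∑ j ∈ Finset.range k, ((1 : ℝ) / 2) ^ j * -(ε / 8) :=
      Finset.sum_le_sum fun j hj => mul_le_mul_of_nonneg_left
        (neg_le_neg (a1 j (Finset.mem_range.2 (by
          have := Finset.mem_range.1 hj
          omega)))) (by positivity)
    rw [← Finset.sum_mul, sum_half] at h8
    simp only [pow_zero, one_mul] at h5
    have h9 : (0 : ℝ) ≤ (1 / 2) ^ k := by positivity
    have h10 : ((1 : ℝ) / 2) ^ k ≤ 1 := pow_le_one₀ (by norm_num) (by norm_num)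
    have h11 := mul_le_mul_of_nonneg_left a2 h9
    have h12 : ((1 : ℝ) / 2) ^ k * d i 0 q ≤ ((1 : ℝ) / 2) ^ k * (|K| + 1) :=
      mul_le_mul_of_nonneg_left (a3.trans (by linarith [le_abs_self K])) h9
    have h13 : ((1 : ℝ) / 2) ^ k * ε ≤ 1 * ε := mul_le_mul_of_nonneg_right h10 hε.le
    nlinarith [h5, h8, h11, h12, h13]
  rw [Metric.tendsto_nhds]
  intro ε hε
  filter_upwards [low 1 (ε / 4) (by positivity), low (-1) (ε / 4) (by positivity),
    hV 1 (ε / 8) (by positivity)] with i a1 a2 a3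
  rw [one_smul] at a1 a3
  have h6 := h4 i 0 g q 0
  rw [zero_add, add_zero, zero_sub, sub_zero] at h6
  rw [neg_one_smul] at a2
  rw [Real.dist_eq, sub_zero, abs_lt]
  constructor <;> linarith

end real

section heights

variable {V E : Type} [Fintype V] [Fintype E] {s t : E → V}

omit [Fintype V] [Fintype E] in
lemma wI_pos {b : ℝ} (hb : 0 < b) (n : ℤ) : 0 < wI b n := by
  rw [wI_eq]
  refine mul_pos (Real.exp_pos _) ?_
  have h := (summable_aw_col hb.le n).le_tsum n.natAbs fun k _ => aw_nonneg hb.le k n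
  refine lt_of_lt_of_le ?_ h
  unfold aw cb
  rw [← two_mul, Nat.choose_self]
  positivity

/-- the charged partition functions are positive -/
lemma Zt_pos (hc : Conn s t) {J : E → ℝ} (hJ : ∀ e, 0 < J e) {xl xr : V} (hx : xl ≠ xr)
    (ρ : V → ℝ) (k : ℤ) : 0 < Zt s t J xl xr ρ 0 k := by
  classical
  obtain ⟨L, -, -, -, hL⟩ := Zt_eq_Zc (s := s) (t := t) hc J xl xr
  have hJ' : ∀ e, 0 ≤ (Sum.elim J (0 : Unit → ℝ)) e := fun e => by
    rcases e with e | e
    · exact (hJ e).le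
    · exact le_rfl
  have hD := grdL_inj (l := px xl) hc ⟨()⟩
  rw [hL]
  set h0 : V → ℤ := fun v => if v = xl then 0 else k with hh0
  have h1 := (Zc_summable hD hJ' (ev xr) (L ρ) k).of_abs.le_tsum h0 fun h _ => by
    refine mul_nonneg (W_nonneg hJ' h) ?_
    split_ifs
    · exact (Real.exp_pos _).le
    · exact le_rfl
  have e1 : (ev xr) h0 = k := by
    show (if xr = xl then 0 else k) = k
    rw [if_neg hx.symm]
  rw [if_pos e1] at h1
  refine lt_of_lt_of_le (mul_pos ?_ (Real.exp_pos _)) h1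
  rw [W_px, if_pos (by show (if xl = xl then 0 else k) = 0; rw [if_pos rfl])]
  unfold W
  exact Finset.prod_pos fun e _ => wI_pos (hJ e) _

lemma Zt_neg (J : E → ℝ) (xl xr : V) (ρ : V → ℝ) (k : ℤ) :
    Zt s t J xl xr (-ρ) 0 (-k) = Zt s t J xl xr ρ 0 k := by
  classical
  unfold Zt
  rw [← tsum_neg_arg]
  refine tsum_congr fun h => ?_
  have e1 : ((-h : V → ℤ) xl = 0 ∧ (-h : V → ℤ) xr = -k) ↔ (h xl = 0 ∧ h xr = k) := by
    simp only [Pi.neg_apply]
    omega
  have e2 : ∑ v, (-ρ) v * (((-h : V → ℤ) v : ℤ) : ℝ) = ∑ v, ρ v * (h v : ℝ) :=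
    Finset.sum_congr rfl fun v _ => by
      simp only [Pi.neg_apply]
      push_cast
      ring
  rw [W_neg, e2]
  by_cases h1 : h xl = 0 ∧ h xr = k
  · rw [if_pos h1, if_pos (e1.2 h1)]
  · rw [if_neg h1, if_neg (fun h2 => h1 (e1.1 h2))]

/-- logarithm of the normalized partition function with tilt `ρ` and charge `k` -/
noncomputable def lX (s t : E → V) (J : E → ℝ) (xl xr : V) (ρ : V → ℝ) (k : ℤ) : ℝ :=
  Real.log (Zt s t J xl xr ρ 0 k / Zt s t J xl xr 0 0 0)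

/-- the two replica inequality for the logarithms -/
theorem lX_four (hc : Conn s t) {J : E → ℝ} (hJ : ∀ e, 0 < J e) {xl xr : V} (hx : xl ≠ xr)
    (ρ σ : V → ℝ) (k l : ℤ) :
    2 * lX s t J xl xr ρ k + 2 * lX s t J xl xr σ l ≤
      lX s t J xl xr (ρ + σ) (k + l) + lX s t J xl xr (ρ - σ) (k - l) := by
  have p : ∀ σ' k', 0 < Zt s t J xl xr σ' 0 k' := fun σ' k' => Zt_pos hc hJ hx σ' k'
  have h := four_Zt (s := s) (t := t) hc (fun e => (hJ e).le) xl xr ρ σ k l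
  have h1 := Real.log_le_log (by have := p ρ k; have := p σ l; positivity) h
  have a1 := (p ρ k).ne'
  have a2 := (p σ l).ne'
  have a3 := (p (ρ + σ) (k + l)).ne'
  have a4 := (p (ρ - σ) (k - l)).ne'
  have a5 := (p 0 0).ne'
  rw [Real.log_pow, Real.log_mul a1 a2, Real.log_mul (mul_ne_zero a3 a4) (pow_ne_zero _ a5),
    Real.log_mul a3 a4, Real.log_pow] at h1
  unfold lX
  rw [Real.log_div a1 a5, Real.log_div a2 a5, Real.log_div a3 a5, Real.log_div a4 a5]
  push_cast at h1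
  linarith

/-- probability of the event `Good` in the tilted measure -/
noncomputable def PG (s t : E → V) (J : E → ℝ) (xl xr : V) (ρ : V → ℝ) : ℝ := by
  classical
  exact (∑' h : V → ℤ, if (h xl = 0 ∧ h xr = 0) ∧ Good s t xl xr h then
      W (grd s t) J h * Real.exp (∑ v, ρ v * (h v : ℝ)) else 0) / Zt s t J xl xr ρ 0 0

/-- the exploration inequality in logarithmic form -/
theorem amp_log (hc : Conn s t) {J : E → ℝ} (hJ : ∀ e, 0 < J e) {xl xr : V} (hx : xl ≠ xr)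
    {ρ : V → ℝ} (hρ : ∀ v, 0 ≤ ρ v) (hP : 0 < PG s t J xl xr ρ) :
    Real.log (PG s t J xl xr ρ) + lX s t J xl xr ρ 0 ≤
      lX s t J xl xr 0 1 + ∑ v, ρ v + lX s t J xl xr ρ (-1) := by
  classical
  have p : ∀ σ' k', 0 < Zt s t J xl xr σ' 0 k' := fun σ' k' => Zt_pos hc hJ hx σ' k'
  have h := amp_le (s := s) (t := t) hc (fun e => (hJ e).le) xl xr hρ
  have e1 : (∑' h : V → ℤ, if (h xl = 0 ∧ h xr = 0) ∧ Good s t xl xr h then
      W (grd s t) J h * Real.exp (∑ v, ρ v * (h v : ℝ)) else 0) =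
      PG s t J xl xr ρ * Zt s t J xl xr ρ 0 0 := by
    unfold PG
    rw [div_mul_cancel₀ _ (p ρ 0).ne']
  have e2 : Zt s t J xl xr ρ 1 0 = Real.exp (∑ v, ρ v) * Zt s t J xl xr ρ 0 (-1) := by
    have h2 := Zt_shift (s := s) (t := t) J xl xr ρ 0 (-1) 1
    simpa using h2
  rw [e1, e2] at h
  have h1 := Real.log_le_log (by have := p ρ 0; have := p 0 0; positivity) h
  have a1 := (p ρ 0).ne'
  have a2 := (p 0 1).ne'
  have a3 := (p ρ (-1)).ne'
  have a5 := (p 0 0).ne'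
  rw [Real.log_mul (mul_ne_zero hP.ne' a1) a5, Real.log_mul hP.ne' a1,
    Real.log_mul a2 (mul_ne_zero (Real.exp_pos _).ne' a3), Real.log_mul (Real.exp_pos _).ne' a3,
    Real.log_exp] at h1
  unfold lX
  rw [Real.log_div a1 a5, Real.log_div a2 a5, Real.log_div a3 a5]
  linarith

/-- **Amplitude bound in which the deficit counts twice** (exact, on any finite graph). -/
theorem amp_twice (hc : Conn s t) {J : E → ℝ} (hJ : ∀ e, 0 < J e) {xl xr : V} (hx : xl ≠ xr)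
    {ρ : V → ℝ} (hρ : ∀ v, 0 ≤ ρ v) (hP : 0 < PG s t J xl xr ρ) (k : ℕ) :
    Real.log (PG s t J xl xr ρ) + lX s t J xl xr ρ 0 +
      ∑ j ∈ Finset.range k, (1 / 2) ^ j * lX s t J xl xr ((2 : ℝ) ^ j • ρ) 0 ≤
      (2 - (1 / 2) ^ k) * lX s t J xl xr 0 1 + ∑ v, ρ v +
        (1 / 2) ^ k * lX s t J xl xr ((2 : ℝ) ^ k • ρ) (-1) := by
  have h1 := amp_log hc hJ hx hρ hP
  have h2 := chain (r := lX s t J xl xr 0 (-1))
    (x := fun j => lX s t J xl xr ((2 : ℝ) ^ j • ρ) (-1))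
    (m := fun j => lX s t J xl xr ((2 : ℝ) ^ j • ρ) 0) (fun j => by
      have h6 := lX_four (s := s) (t := t) hc hJ hx ((2 : ℝ) ^ j • ρ) ((2 : ℝ) ^ j • ρ) (-1) 0
      rw [add_zero, sub_zero, sub_self, ← add_smul] at h6
      have h7 : ((2 : ℝ) ^ j + 2 ^ j : ℝ) = 2 ^ (j + 1) := by ring
      rw [h7] at h6
      show 2 * (lX s t J xl xr ((2 : ℝ) ^ j • ρ) (-1) + lX s t J xl xr ((2 : ℝ) ^ j • ρ) 0) ≤
        lX s t J xl xr ((2 : ℝ) ^ (j + 1) • ρ) (-1) + lX s t J xl xr 0 (-1)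
      linarith) k
  have h3 : lX s t J xl xr 0 (-1) = lX s t J xl xr 0 1 := by
    have := Zt_neg (s := s) (t := t) J xl xr 0 1
    rw [neg_zero] at this
    unfold lX
    rw [this]
  rw [h3] at h2
  simp only [pow_zero, one_smul] at h2
  linarith

/-- **Amplitude bound, final form.** `A` is the Gaussian energy of the tilt, `X` its mean under the
harmonic function of the charge, `κ` the energy of the charge. -/
theorem amp_gauss (hc : Conn s t) {J : E → ℝ} (hJ : ∀ e, 0 < J e) {xl xr : V} (hx : xl ≠ xr)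
    {ρ : V → ℝ} (hρ : ∀ v, 0 ≤ ρ v) (hP : 0 < PG s t J xl xr ρ) {k : ℕ} {A X κ δ : ℝ} (h0 : 0 ≤ δ)
    (hV : ∀ j ≤ k, 4 ^ j * A - δ ≤ lX s t J xl xr ((2 : ℝ) ^ j • ρ) 0)
    (hU : lX s t J xl xr ((2 : ℝ) ^ k • ρ) (-1) ≤ 4 ^ k * A - 2 ^ k * X - κ + δ) :
    Real.log (PG s t J xl xr ρ) - (∑ v, ρ v - X) + (1 / 2) ^ k * κ - 3 * δ ≤
      (2 - (1 / 2) ^ k) * lX s t J xl xr 0 1 := by
  have h1 := amp_twice hc hJ hx hρ hP k
  have h2 := hV 0 (Nat.zero_le _)
  simp only [pow_zero, one_smul, one_mul] at h2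
  have hδ : (1 / 2 : ℝ) ^ k ≤ 1 := pow_le_one₀ (by norm_num) (by norm_num)
  have h3 : ∑ j ∈ Finset.range k, ((1 : ℝ) / 2) ^ j * (4 ^ j * A - δ) ≤
      ∑ j ∈ Finset.range k, ((1 : ℝ) / 2) ^ j * lX s t J xl xr ((2 : ℝ) ^ j • ρ) 0 :=
    Finset.sum_le_sum fun j hj => mul_le_mul_of_nonneg_left
      (hV j (Finset.mem_range.1 hj).le) (by positivity)
  have h4 : ∑ j ∈ Finset.range k, ((1 : ℝ) / 2) ^ j * (4 ^ j * A - δ) =
      (2 ^ k - 1) * A - 2 * (1 - (1 / 2) ^ k) * δ := by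
    rw [← sum_two, ← sum_half, Finset.sum_mul, Finset.sum_mul, ← Finset.sum_sub_distrib]
    exact Finset.sum_congr rfl fun j _ => by ring
  rw [h4] at h3
  have h5 := mul_le_mul_of_nonneg_left hU (by positivity : (0 : ℝ) ≤ (1 / 2) ^ k)
  have h6 : ((1 : ℝ) / 2) ^ k * (4 ^ k * A - 2 ^ k * X - κ + δ) =
      2 ^ k * A - X - (1 / 2) ^ k * κ + (1 / 2) ^ k * δ := by
    have e1 : ((1 : ℝ) / 2) ^ k * 4 ^ k = 2 ^ k := by rw [← mul_pow]; norm_num
    have e2 : ((1 : ℝ) / 2) ^ k * 2 ^ k = 1 := by rw [← mul_pow]; norm_num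
    linear_combination A * e1 - X * e2
  rw [h6] at h5
  have h8 : 0 ≤ (1 / 2 : ℝ) ^ k * δ := by positivity
  linarith

end heights

end Vale.Agent.P159.T1.H598
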