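import Vale.Agent.P159.T1.H934.Amp

/-!
The four replica inequality for integer heights with a charge and a real tilt, and the constancy
of the deficit of the charged sector (remark R1 of plan 105 and remark (R)).
-/

open Filter Topology

namespace Vale.Agent.P159.T1.H598

open Vale.Agent.P159 Vale.Agent.P159.H353 Vale.Agent.P159.R2.H254
open Vale.Agent.P159.T1.H934

section abs

variable {H : Type} [AddCommGroup H] {E : Type} [Fintype E]

lemma gw_mono {ρ σ : ℝ} (h0 : 0 ≤ ρ) (h : ρ ≤ σ) (n : E → ℤ) : gw ρ n ≤ gw σ n :=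
  Finset.prod_le_prod (fun _ _ => pow_nonneg h0 _) fun _ _ => pow_le_pow_left₀ h0 h _

/-- partition function in the sector `c = k` with real tilt `a` -/
noncomputable def Zc (D : H →+ (E → ℤ)) (J : E → ℝ) (c : H →+ ℤ) (a : E → ℝ) (k : ℤ) : ℝ :=
  ∑' h, W D J h * (if c h = k then Real.exp (ln D a h) else 0)

lemma Zc_nonneg {D : H →+ (E → ℤ)} {J : E → ℝ} (hJ : ∀ e, 0 ≤ J e) (c : H →+ ℤ) (a : E → ℝ)
    (k : ℤ) : 0 ≤ Zc D J c a k := by
  refine tsum_nonneg fun h => mul_nonneg (W_nonneg hJ h) ?_
  split_ifs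
  · exact (Real.exp_pos _).le
  · exact le_rfl

lemma Zc_summable {D : H →+ (E → ℤ)} (hD : Function.Injective D) {J : E → ℝ}
    (hJ : ∀ e, 0 ≤ J e) (c : H →+ ℤ) (a : E → ℝ) (k : ℤ) :
    Summable fun h => |W D J h * (if c h = k then Real.exp (ln D a h) else 0)| := by
  refine summable_growth hD hJ a (C := 1) fun h => ?_
  split_ifs
  · rw [abs_of_pos (Real.exp_pos _), one_mul]
    exact Real.exp_le_exp.2 (le_abs_self _)
  · rw [abs_zero]; positivity

/-- reflection of the heights -/
lemma Zc_neg (D : H →+ (E → ℤ)) (J : E → ℝ) (c : H →+ ℤ) (a : E → ℝ) (k : ℤ) :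
    Zc D J c (-a) (-k) = Zc D J c a k := by
  unfold Zc
  rw [← tsum_neg_arg]
  refine tsum_congr fun h => ?_
  rw [W_neg]
  have e1 : ln D (-a) (-h) = ln D a h := by
    rw [ln_neg]
    unfold ln
    rw [← Finset.sum_neg_distrib]
    exact Finset.sum_congr rfl fun e _ => by rw [Pi.neg_apply]; ring
  rw [e1, map_neg]
  by_cases h1 : c h = k
  · rw [if_pos h1, if_pos (by rw [h1])]
  · rw [if_neg h1, if_neg (fun h2 => h1 (neg_injective h2))]

/-- **Four replica inequality with charges and real tilts.** -/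
theorem four {D : H →+ (E → ℤ)} (hD : Function.Injective D) {J : E → ℝ} (hJ : ∀ e, 0 ≤ J e)
    (c : H →+ ℤ) (a b : E → ℝ) (k l : ℤ) :
    (Zc D J c a k * Zc D J c b l) ^ 2 ≤
      Zc D J c (a + b) (k + l) * Zc D J c (a - b) (k - l) * Zc D J c 0 0 ^ 2 := by
  set u : E → ℝ := fun e => 1 / 2 * (a + b) e with hu
  set w : E → ℝ := fun e => 1 / 2 * (a - b) e with hw
  have lu : ∀ h : H, ln D u h = 1 / 2 * ln D (a + b) h := ln_smul D (a + b) (1 / 2)
  have lw : ∀ h : H, ln D w h = 1 / 2 * ln D (a - b) h := ln_smul D (a - b) (1 / 2)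
  have ladd : ∀ h : H, ln D (a + b) h = ln D a h + ln D b h := fun h => by
    unfold ln
    rw [← Finset.sum_add_distrib]
    exact Finset.sum_congr rfl fun e _ => by rw [Pi.add_apply]; ring
  have lsub : ∀ h : H, ln D (a - b) h = ln D a h - ln D b h := fun h => by
    unfold ln
    rw [← Finset.sum_sub_distrib]
    exact Finset.sum_congr rfl fun e _ => by rw [Pi.sub_apply]; ring
  set ρ : ℝ := Real.exp (∑ e, |u e| + ∑ e, |w e|) with hρ
  have s1 : 0 ≤ ∑ e, |u e| := Finset.sum_nonneg fun _ _ => abs_nonneg _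
  have s2 : 0 ≤ ∑ e, |w e| := Finset.sum_nonneg fun _ _ => abs_nonneg _
  have hρ1 : 1 ≤ ρ := Real.one_le_exp (add_nonneg s1 s2)
  have gu : ∀ h : H, |(if c h = k + l then Real.exp (ln D u h) else 0)| ≤ gw ρ (D h) := fun h => by
    have h1 : Real.exp |ln D u h| ≤ gw ρ (D h) := (exp_ln_le D u h).trans
      (gw_mono (Real.exp_pos _).le (Real.exp_le_exp.2 (by linarith)) _)
    split_ifs
    · rw [abs_of_pos (Real.exp_pos _)]
      exact (Real.exp_le_exp.2 (le_abs_self _)).trans h1
    · rw [abs_zero]; exact (gw_pos hρ1 _).le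
  have gv : ∀ h : H, |(if c h = k - l then Real.exp (ln D w h) else 0)| ≤ gw ρ (D h) := fun h => by
    have h1 : Real.exp |ln D w h| ≤ gw ρ (D h) := (exp_ln_le D w h).trans
      (gw_mono (Real.exp_pos _).le (Real.exp_le_exp.2 (by linarith)) _)
    split_ifs
    · rw [abs_of_pos (Real.exp_pos _)]
      exact (Real.exp_le_exp.2 (le_abs_self _)).trans h1
    · rw [abs_zero]; exact (gw_pos hρ1 _).le
  set P := Zc D J c (a + b) (k + l) * Zc D J c 0 0 with hP
  set R := Zc D J c (a - b) (k - l) * Zc D J c 0 0 with hR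
  set Q := Zc D J c a k * Zc D J c b l with hQ
  have A1 := Zc_summable hD hJ c (a + b) (k + l)
  have A2 := Zc_summable hD hJ c (a - b) (k - l)
  have A0 := Zc_summable hD hJ c 0 0
  have Aa := Zc_summable hD hJ c a k
  have Ab := Zc_summable hD hJ c b l
  have Ab' := Zc_summable hD hJ c (-b) (-l)
  have hln0 : ∀ h : H, ln D 0 h = 0 := fun h => by
    unfold ln
    simp
  have hlnn : ∀ h : H, ln D (-b) h = -ln D b h := fun h => by
    unfold ln
    rw [← Finset.sum_neg_distrib]
    exact Finset.sum_congr rfl fun e _ => by rw [Pi.neg_apply]; ring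
  -- the quadratic form
  have quad : ∀ x : ℝ, 0 ≤ P * (x * x) + (2 * Q) * x + R := by
    intro x
    have gb : ∀ h : H, |x * (if c h = k + l then Real.exp (ln D u h) else 0) +
        (if c h = k - l then Real.exp (ln D w h) else 0)| ≤ (|x| + 1) * gw ρ (D h) := by
      intro h
      refine (abs_add_le _ _).trans ?_
      rw [abs_mul, add_mul, one_mul]
      exact add_le_add (mul_le_mul_of_nonneg_left (gu h) (abs_nonneg _)) (gv h)
    have h0 := dup_gen (D := D) hD hJ (K := 0) (fun _ => le_rfl)
      (g := fun h => x * (if c h = k + l then Real.exp (ln D u h) else 0) +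
        (if c h = k - l then Real.exp (ln D w h) else 0)) (C := |x| + 1) hρ1 gb 0 (by simp)
    rw [add_zero] at h0
    have h1 := (((hasSum_mul_pair A1 A0).mul_left (x * x)).add
      (((hasSum_mul_pair Aa Ab).add (hasSum_mul_pair Aa Ab')).mul_left x)).add
      (hasSum_mul_pair A2 A0)
    have e : ∀ y : H × H, (W D J y.1 * W D J y.2 + 0 * (W D J y.1 * W D J y.2)) *
        ((x * (if c (y.1 + y.2) = k + l then Real.exp (ln D u (y.1 + y.2)) else 0) +
          (if c (y.1 + y.2) = k - l then Real.exp (ln D w (y.1 + y.2)) else 0)) *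
        (x * (if c (y.1 - y.2) = k + l then Real.exp (ln D u (y.1 - y.2)) else 0) +
          (if c (y.1 - y.2) = k - l then Real.exp (ln D w (y.1 - y.2)) else 0))) =
        x * x * (W D J y.1 * (if c y.1 = k + l then Real.exp (ln D (a + b) y.1) else 0) *
          (W D J y.2 * (if c y.2 = 0 then Real.exp (ln D 0 y.2) else 0))) +
        x * (W D J y.1 * (if c y.1 = k then Real.exp (ln D a y.1) else 0) *
          (W D J y.2 * (if c y.2 = l then Real.exp (ln D b y.2) else 0)) +
          W D J y.1 * (if c y.1 = k then Real.exp (ln D a y.1) else 0) *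
          (W D J y.2 * (if c y.2 = -l then Real.exp (ln D (-b) y.2) else 0))) +
        W D J y.1 * (if c y.1 = k - l then Real.exp (ln D (a - b) y.1) else 0) *
          (W D J y.2 * (if c y.2 = 0 then Real.exp (ln D 0 y.2) else 0)) := by
      intro y
      have f1 : (if c (y.1 + y.2) = k + l then Real.exp (ln D u (y.1 + y.2)) else 0) *
          (if c (y.1 - y.2) = k + l then Real.exp (ln D u (y.1 - y.2)) else 0) =
          (if c y.1 = k + l then Real.exp (ln D (a + b) y.1) else 0) *
          (if c y.2 = 0 then Real.exp (ln D 0 y.2) else 0) := by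
        rw [map_add, map_sub]
        by_cases h3 : c y.1 = k + l ∧ c y.2 = 0
        · rw [if_pos (by omega), if_pos (by omega), if_pos h3.1, if_pos h3.2, hln0,
            Real.exp_zero, mul_one, ← Real.exp_add, ln_add, ln_sub, lu, lu]
          congr 1
          ring
        · have h4 : ¬ (c y.1 + c y.2 = k + l) ∨ ¬ (c y.1 - c y.2 = k + l) := by omega
          have h5 : ¬ (c y.1 = k + l) ∨ ¬ (c y.2 = 0) := by omega
          have z1 : (if c y.1 + c y.2 = k + l then Real.exp (ln D u (y.1 + y.2)) else 0) *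
              (if c y.1 - c y.2 = k + l then Real.exp (ln D u (y.1 - y.2)) else 0) = 0 := by
            rcases h4 with h4 | h4 <;> simp [h4]
          have z2 : (if c y.1 = k + l then Real.exp (ln D (a + b) y.1) else 0) *
              (if c y.2 = 0 then Real.exp (ln D 0 y.2) else 0) = 0 := by
            rcases h5 with h5 | h5 <;> simp [h5]
          rw [z1, z2]
      have f2 : (if c (y.1 + y.2) = k - l then Real.exp (ln D w (y.1 + y.2)) else 0) *
          (if c (y.1 - y.2) = k - l then Real.exp (ln D w (y.1 - y.2)) else 0) =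
          (if c y.1 = k - l then Real.exp (ln D (a - b) y.1) else 0) *
          (if c y.2 = 0 then Real.exp (ln D 0 y.2) else 0) := by
        rw [map_add, map_sub]
        by_cases h3 : c y.1 = k - l ∧ c y.2 = 0
        · rw [if_pos (by omega), if_pos (by omega), if_pos h3.1, if_pos h3.2, hln0,
            Real.exp_zero, mul_one, ← Real.exp_add, ln_add, ln_sub, lw, lw]
          congr 1
          ring
        · have h4 : ¬ (c y.1 + c y.2 = k - l) ∨ ¬ (c y.1 - c y.2 = k - l) := by omega
          have h5 : ¬ (c y.1 = k - l) ∨ ¬ (c y.2 = 0) := by omega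
          have z1 : (if c y.1 + c y.2 = k - l then Real.exp (ln D w (y.1 + y.2)) else 0) *
              (if c y.1 - c y.2 = k - l then Real.exp (ln D w (y.1 - y.2)) else 0) = 0 := by
            rcases h4 with h4 | h4 <;> simp [h4]
          have z2 : (if c y.1 = k - l then Real.exp (ln D (a - b) y.1) else 0) *
              (if c y.2 = 0 then Real.exp (ln D 0 y.2) else 0) = 0 := by
            rcases h5 with h5 | h5 <;> simp [h5]
          rw [z1, z2]
      have f3 : (if c (y.1 + y.2) = k + l then Real.exp (ln D u (y.1 + y.2)) else 0) *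
          (if c (y.1 - y.2) = k - l then Real.exp (ln D w (y.1 - y.2)) else 0) =
          (if c y.1 = k then Real.exp (ln D a y.1) else 0) *
          (if c y.2 = l then Real.exp (ln D b y.2) else 0) := by
        rw [map_add, map_sub]
        by_cases h3 : c y.1 = k ∧ c y.2 = l
        · rw [if_pos (by omega), if_pos (by omega), if_pos h3.1, if_pos h3.2,
            ← Real.exp_add, ← Real.exp_add, ln_add, ln_sub, lu, lu, lw, lw, ladd, ladd, lsub, lsub]
          congr 1
          ring
        · have h4 : ¬ (c y.1 + c y.2 = k + l) ∨ ¬ (c y.1 - c y.2 = k - l) := by omega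
          have h5 : ¬ (c y.1 = k) ∨ ¬ (c y.2 = l) := by omega
          have z1 : (if c y.1 + c y.2 = k + l then Real.exp (ln D u (y.1 + y.2)) else 0) *
              (if c y.1 - c y.2 = k - l then Real.exp (ln D w (y.1 - y.2)) else 0) = 0 := by
            rcases h4 with h4 | h4 <;> simp [h4]
          have z2 : (if c y.1 = k then Real.exp (ln D a y.1) else 0) *
              (if c y.2 = l then Real.exp (ln D b y.2) else 0) = 0 := by
            rcases h5 with h5 | h5 <;> simp [h5]
          rw [z1, z2]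
      have f4 : (if c (y.1 + y.2) = k - l then Real.exp (ln D w (y.1 + y.2)) else 0) *
          (if c (y.1 - y.2) = k + l then Real.exp (ln D u (y.1 - y.2)) else 0) =
          (if c y.1 = k then Real.exp (ln D a y.1) else 0) *
          (if c y.2 = -l then Real.exp (ln D (-b) y.2) else 0) := by
        rw [map_add, map_sub]
        by_cases h3 : c y.1 = k ∧ c y.2 = -l
        · rw [if_pos (by omega), if_pos (by omega), if_pos h3.1, if_pos h3.2, hlnn,
            ← Real.exp_add, ← Real.exp_add, ln_add, ln_sub, lu, lu, lw, lw, ladd, ladd, lsub, lsub]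
          congr 1
          ring
        · have h4 : ¬ (c y.1 + c y.2 = k - l) ∨ ¬ (c y.1 - c y.2 = k + l) := by omega
          have h5 : ¬ (c y.1 = k) ∨ ¬ (c y.2 = -l) := by omega
          have z1 : (if c y.1 + c y.2 = k - l then Real.exp (ln D w (y.1 + y.2)) else 0) *
              (if c y.1 - c y.2 = k + l then Real.exp (ln D u (y.1 - y.2)) else 0) = 0 := by
            rcases h4 with h4 | h4 <;> simp [h4]
          have z2 : (if c y.1 = k then Real.exp (ln D a y.1) else 0) *
              (if c y.2 = -l then Real.exp (ln D (-b) y.2) else 0) = 0 := by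
            rcases h5 with h5 | h5 <;> simp [h5]
          rw [z1, z2]
      linear_combination (W D J y.1 * W D J y.2) * (x * x * f1 + f2 + x * f3 + x * f4)
    rw [tsum_congr e, h1.tsum_eq] at h0
    have h2 : ∑' h, W D J h * (if c h = -l then Real.exp (ln D (-b) h) else 0) =
        Zc D J c b l := Zc_neg D J c b l
    rw [h2] at h0
    have h3 : x * x * (Zc D J c (a + b) (k + l) * Zc D J c 0 0) +
        x * (Zc D J c a k * Zc D J c b l + Zc D J c a k * Zc D J c b l) +
        Zc D J c (a - b) (k - l) * Zc D J c 0 0 = P * (x * x) + (2 * Q) * x + R := by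
      rw [hP, hQ, hR]
      ring
    rw [← h3]
    exact h0
  have hd := discrim_le_zero quad
  unfold discrim at hd
  have : Q ^ 2 ≤ P * R := by nlinarith [hd]
  refine this.trans (le_of_eq ?_)
  rw [hP, hR]
  ring

/-- the charge zero sector is positive -/
lemma Zc_pos {D : H →+ (E → ℤ)} (hD : Function.Injective D) {J : E → ℝ} (hJ : ∀ e, 0 ≤ J e)
    (c : H →+ ℤ) (a : E → ℝ) : 0 < Zc D J c a 0 := by
  have h0 : 0 < W D J (0 : H) := by
    unfold W
    rw [map_zero]
    exact Finset.prod_pos fun e _ => wI_zero_pos (hJ e)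
  have h1 := (Zc_summable hD hJ c a 0).of_abs.le_tsum 0 fun h _ => by
    refine mul_nonneg (W_nonneg hJ h) ?_
    split_ifs
    · exact (Real.exp_pos _).le
    · exact le_rfl
  rw [map_zero, if_pos rfl] at h1
  exact lt_of_lt_of_le (mul_pos h0 (Real.exp_pos _)) h1

end abs

section heights

variable {V E : Type} [Fintype V] [Fintype E] {s t : E → V}

/-- the pinned partition functions as sector sums -/
lemma Zt_eq_Zc (hc : Conn s t) (J : E → ℝ) (xl xr : V) :
    ∃ L : (V → ℝ) → (E ⊕ Unit → ℝ),
      (∀ ρ σ, L (ρ + σ) = L ρ + L σ) ∧ (∀ ρ σ, L (ρ - σ) = L ρ - L σ) ∧ L 0 = 0 ∧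
      ∀ (ρ : V → ℝ) (k : ℤ), Zt s t J xl xr ρ 0 k =
        Zc (grdL s t (px xl)) (Sum.elim J 0) (ev xr) (L ρ) k := by
  choose f hf using fun v => exists_flow hc xl v
  have hL : ∀ ρ : V → ℝ, ∀ h : V → ℤ, ∑ v, ρ v * (h v : ℝ) = ln (grdL s t (px xl))
      (Sum.elim (fun e => ∑ v, ρ v * f v e) (fun _ => ∑ v, ρ v)) h := by
    intro ρ h
    unfold ln
    rw [Fintype.sum_sum_type]
    simp only [Sum.elim_inl, Sum.elim_inr, Finset.univ_unique, Finset.sum_singleton]
    have h1 : ∑ e, (∑ v, ρ v * f v e) * ((grdL s t (px xl) h (Sum.inl e) : ℤ) : ℝ) =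
        ∑ v, ρ v * ((h v - h xl : ℤ) : ℝ) := by
      simp only [Finset.sum_mul]
      rw [Finset.sum_comm]
      refine Finset.sum_congr rfl fun v _ => ?_
      rw [hf v h, Finset.mul_sum]
      exact Finset.sum_congr rfl fun e _ => by
        show ρ v * f v e * (grd s t h e : ℝ) = _
        ring
    have h2 : ((grdL s t (px xl) h (Sum.inr default) : ℤ) : ℝ) = (h xl : ℝ) := rfl
    rw [h1, h2, Finset.sum_mul, ← Finset.sum_add_distrib]
    refine Finset.sum_congr rfl fun v _ => ?_
    push_cast
    ring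
  refine ⟨fun ρ => Sum.elim (fun e => ∑ v, ρ v * f v e) (fun _ => ∑ v, ρ v), ?_, ?_, ?_, ?_⟩
  · intro ρ σ
    funext x
    rcases x with e | u
    · simp only [Sum.elim_inl, Pi.add_apply]
      rw [← Finset.sum_add_distrib]
      exact Finset.sum_congr rfl fun v _ => by ring
    · simp only [Sum.elim_inr, Pi.add_apply]
      rw [← Finset.sum_add_distrib]
  · intro ρ σ
    funext x
    rcases x with e | u
    · simp only [Sum.elim_inl, Pi.sub_apply]
      rw [← Finset.sum_sub_distrib]
      exact Finset.sum_congr rfl fun v _ => by ring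
    · simp only [Sum.elim_inr, Pi.sub_apply]
      rw [← Finset.sum_sub_distrib]
  · funext x
    rcases x with e | u <;> simp
  · intro ρ k
    classical
    unfold Zt Zc
    refine tsum_congr fun h => ?_
    rw [W_px, ← hL ρ h]
    show _ = (if h xl = 0 then W (grd s t) J h else 0) *
      (if h xr = k then Real.exp (∑ v, ρ v * (h v : ℝ)) else 0)
    by_cases h1 : h xl = 0 <;> by_cases h2 : h xr = k <;> simp [h1, h2]

/-- **Four replica inequality** for integer heights with a real tilt and a boundary charge. -/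
theorem four_Zt (hc : Conn s t) {J : E → ℝ} (hJ : ∀ e, 0 ≤ J e) (xl xr : V) (ρ σ : V → ℝ)
    (k l : ℤ) :
    (Zt s t J xl xr ρ 0 k * Zt s t J xl xr σ 0 l) ^ 2 ≤
      Zt s t J xl xr (ρ + σ) 0 (k + l) * Zt s t J xl xr (ρ - σ) 0 (k - l) *
        Zt s t J xl xr 0 0 0 ^ 2 := by
  obtain ⟨L, ha, hs, h0, hL⟩ := Zt_eq_Zc (s := s) (t := t) hc J xl xr
  have hJ' : ∀ e, 0 ≤ (Sum.elim J (0 : Unit → ℝ)) e := fun e => by
    rcases e with e | e
    · exact hJ e
    · exact le_rfl
  have hD := grdL_inj (l := px xl) hc ⟨()⟩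
  rw [hL, hL, hL, hL, hL, ha, hs, h0]
  exact four hD hJ' _ _ _ _ _

lemma Zt_zero_pos (hc : Conn s t) {J : E → ℝ} (hJ : ∀ e, 0 ≤ J e) (xl xr : V) (ρ : V → ℝ) :
    0 < Zt s t J xl xr ρ 0 0 := by
  obtain ⟨L, -, -, -, hL⟩ := Zt_eq_Zc (s := s) (t := t) hc J xl xr
  have hJ' : ∀ e, 0 ≤ (Sum.elim J (0 : Unit → ℝ)) e := fun e => by
    rcases e with e | e
    · exact hJ e
    · exact le_rfl
  have hD := grdL_inj (l := px xl) hc ⟨()⟩
  rw [hL]
  exact Zc_pos hD hJ' _ _

end heights

end Vale.Agent.P159.T1.H598
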