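import Vale.Agent.P159.T1.H598.R1b

/-!
The four replica inequality with a real gauge field on the edges and a boundary charge.
-/

open Filter Topology

namespace Vale.Agent.P159.T1.H598

open Vale.Agent.P159 Vale.Agent.P159.H353 Vale.Agent.P159.R2.H254
open Vale.Agent.P159.T1.H934

variable {V E : Type} [Fintype V] [Fintype E] {s t : E → V}

open Classical in
/-- partition function with heights `0` at `xl`, `k` at `xr` and real gauge field `B` -/
noncomputable def Zg (s t : E → V) (J : E → ℝ) (xl xr : V) (B : E → ℝ) (k : ℤ) : ℝ :=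
  ∑' h : V → ℤ, if h xl = 0 ∧ h xr = k then
    W (grd s t) J h * Real.exp (∑ e, B e * (grd s t h e : ℝ)) else 0

lemma Zg_eq_Zc (J : E → ℝ) (xl xr : V) (B : E → ℝ) (k : ℤ) :
    Zg s t J xl xr B k =
      Zc (grdL s t (px xl)) (Sum.elim J 0) (ev xr) (Sum.elim B 0) k := by
  classical
  unfold Zg Zc
  refine tsum_congr fun h => ?_
  rw [W_px]
  have e1 : ln (grdL s t (px xl)) (Sum.elim B 0) h = ∑ e, B e * (grd s t h e : ℝ) := by
    unfold ln
    rw [Fintype.sum_sum_type]
    simp only [Sum.elim_inl, Sum.elim_inr, Pi.zero_apply, zero_mul, Finset.sum_const_zero,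
      add_zero]
    rfl
  rw [e1]
  show _ = (if h xl = 0 then W (grd s t) J h else 0) *
    (if h xr = k then Real.exp (∑ e, B e * (grd s t h e : ℝ)) else 0)
  by_cases h1 : h xl = 0 <;> by_cases h2 : h xr = k <;> simp [h1, h2]

/-- a tilt is a gauge field -/
lemma Zt_gauge (hc : Conn s t) (J : E → ℝ) (xl xr : V) (ρ : V → ℝ) :
    ∃ B : E → ℝ, ∀ k, Zt s t J xl xr ρ 0 k = Zg s t J xl xr B k := by
  classical
  obtain ⟨B, hB⟩ := exists_lin (s := s) (t := t) hc xl ρ
  refine ⟨B, fun k => ?_⟩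
  unfold Zt Zg
  refine tsum_congr fun h => ?_
  by_cases h1 : h xl = 0 ∧ h xr = k
  · rw [if_pos h1, if_pos h1, hB h h1.1]
  · rw [if_neg h1, if_neg h1]

lemma el_add (B B' : E → ℝ) : (Sum.elim (B + B') 0 : E ⊕ Unit → ℝ) =
    Sum.elim B 0 + Sum.elim B' 0 := by
  funext x
  rcases x with e | e <;> simp

lemma el_sub (B B' : E → ℝ) : (Sum.elim (B - B') 0 : E ⊕ Unit → ℝ) =
    Sum.elim B 0 - Sum.elim B' 0 := by
  funext x
  rcases x with e | e <;> simp

lemma el_zero : (Sum.elim (0 : E → ℝ) 0 : E ⊕ Unit → ℝ) = 0 := by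
  funext x
  rcases x with e | e <;> simp

/-- **Four replica inequality** for integer heights with a real gauge field and a boundary
charge. -/
theorem four_Zg (hc : Conn s t) {J : E → ℝ} (hJ : ∀ e, 0 ≤ J e) (xl xr : V) (B B' : E → ℝ)
    (k l : ℤ) :
    (Zg s t J xl xr B k * Zg s t J xl xr B' l) ^ 2 ≤
      Zg s t J xl xr (B + B') (k + l) * Zg s t J xl xr (B - B') (k - l) *
        Zg s t J xl xr 0 0 ^ 2 := by
  have hJ' : ∀ e, 0 ≤ (Sum.elim J (0 : Unit → ℝ)) e := fun e => by
    rcases e with e | e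
    · exact hJ e
    · exact le_rfl
  have hD := grdL_inj (l := px xl) hc ⟨()⟩
  rw [Zg_eq_Zc, Zg_eq_Zc, Zg_eq_Zc, Zg_eq_Zc, Zg_eq_Zc, el_add, el_sub, el_zero]
  exact four hD hJ' _ _ _ _ _

lemma Zg_pos (hc : Conn s t) {J : E → ℝ} (hJ : ∀ e, 0 < J e) {xl xr : V} (hx : xl ≠ xr)
    (B : E → ℝ) (k : ℤ) : 0 < Zg s t J xl xr B k := by
  classical
  have hJ' : ∀ e, 0 ≤ (Sum.elim J (0 : Unit → ℝ)) e := fun e => by
    rcases e with e | e
    · exact (hJ e).le
    · exact le_rfl
  have hD := grdL_inj (l := px xl) hc ⟨()⟩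
  rw [Zg_eq_Zc]
  set h0 : V → ℤ := fun v => if v = xl then 0 else k with hh0
  have h1 := (Zc_summable hD hJ' (ev xr) (Sum.elim B 0) k).of_abs.le_tsum h0 fun h _ => by
    refine mul_nonneg (W_nonneg hJ' h) ?_
    split_ifs
    · exact (Real.exp_pos _).le
    · exact le_rfl
  have e1 : (ev xr) h0 = k := by
    show (if xr = xl then 0 else k) = k
    rw [if_neg hx.symm]
  rw [if_pos e1] at h1
  refine lt_of_lt_of_le (mul_pos ?_ (Real.exp_pos _)) h1
  rw [W_px, if_pos (by show (if xl = xl then 0 else k) = 0; rw [if_pos rfl])]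
  unfold W
  exact Finset.prod_pos fun e _ => wI_pos (hJ e) _

/-- logarithm of the normalized partition function with gauge field `B` and charge `k` -/
noncomputable def lG (s t : E → V) (J : E → ℝ) (xl xr : V) (B : E → ℝ) (k : ℤ) : ℝ :=
  Real.log (Zg s t J xl xr B k / Zg s t J xl xr 0 0)

/-- the two replica inequality for the logarithms -/
theorem lG_four (hc : Conn s t) {J : E → ℝ} (hJ : ∀ e, 0 < J e) {xl xr : V} (hx : xl ≠ xr)
    (B B' : E → ℝ) (k l : ℤ) :
    2 * lG s t J xl xr B k + 2 * lG s t J xl xr B' l ≤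
      lG s t J xl xr (B + B') (k + l) + lG s t J xl xr (B - B') (k - l) := by
  have p : ∀ σ' k', 0 < Zg s t J xl xr σ' k' := fun σ' k' => Zg_pos hc hJ hx σ' k'
  have h := four_Zg (s := s) (t := t) hc (fun e => (hJ e).le) xl xr B B' k l
  have h1 := Real.log_le_log (by have := p B k; have := p B' l; positivity) h
  have a1 := (p B k).ne'
  have a2 := (p B' l).ne'
  have a3 := (p (B + B') (k + l)).ne'
  have a4 := (p (B - B') (k - l)).ne'
  have a5 := (p 0 0).ne'
  rw [Real.log_pow, Real.log_mul a1 a2, Real.log_mul (mul_ne_zero a3 a4) (pow_ne_zero _ a5),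
    Real.log_mul a3 a4, Real.log_pow] at h1
  unfold lG
  rw [Real.log_div a1 a5, Real.log_div a2 a5, Real.log_div a3 a5, Real.log_div a4 a5]
  push_cast at h1
  linarith

end Vale.Agent.P159.T1.H598
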